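import Vale.Agent.P181.R2.H923.FR2
import Vale.Agent.P181.R2.H9.FR3

set_option autoImplicit false
open scoped TensorProduct
namespace Vale.Agent.P181.FR
open Vale.Agent.P181 Vale.Agent.P181.H280 Vale.Agent.P181.H54 MvPolynomial

namespace H277

theorem MP_one (B m : ℕ) : (1 : (Fin B → Fin m → ℂ) → ℂ) ∈ MP B m 0 := by
  refine Submodule.subset_span ⟨fun _ => 1, fun _ => isHomogeneous_one _ _, ?_⟩
  funext p
  simp

theorem MP_pow {B m a : ℕ} {G : (Fin B → Fin m → ℂ) → ℂ} (hG : G ∈ MP B m a) (n : ℕ) :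
    G ^ n ∈ MP B m (n * a) := by
  induction n with
  | zero => rw [pow_zero, zero_mul]; exact MP_one B m
  | succ n ih =>
    rw [pow_succ, Nat.succ_mul]
    exact MP_mul ih hG

/-- Product of the coordinates `0`. -/
noncomputable def XX (B n : ℕ) (p : Fin B → Fin (n + 1) → ℂ) : ℂ := ∏ j, p j 0

theorem XX_mem (B n : ℕ) : XX B n ∈ MP B (n + 1) 1 := MP_coord fun _ => 0

theorem XX_perm {B n : ℕ} (σ : Equiv.Perm (Fin B)) (p : Fin B → Fin (n + 1) → ℂ) :
    XX B n (fun j => p (σ j)) = XX B n p := by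
  unfold XX
  exact Equiv.prod_comp σ (fun j => p j 0)

theorem vm0 {n : ℕ} {g : Matrix (Fin (n + 1)) (Fin (n + 1)) ℂ} (hg : IsBorel g)
    (v : Fin (n + 1) → ℂ) : Matrix.vecMul v g 0 = v 0 * g 0 0 := by
  rw [Matrix.vecMul, dotProduct, Finset.sum_eq_single 0]
  · intro b _ hb
    rw [hg.1 b 0 (Fin.pos_of_ne_zero hb), mul_zero]
  · intro h; exact absurd (Finset.mem_univ _) h

theorem vm1 {n : ℕ} {g : Matrix (Fin (n + 1)) (Fin (n + 1)) ℂ} (hg : IsBorel g)
    (v : Fin (n + 1) → ℂ) {o : Fin (n + 1)} (ho : (o : ℕ) = 1) :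
    Matrix.vecMul v g o = v 0 * g 0 o + v o * g o o := by
  have h0 : (0 : Fin (n + 1)) ≠ o := by
    intro h; rw [← h] at ho; simp at ho
  rw [Matrix.vecMul, dotProduct, ← Finset.sum_subset (Finset.subset_univ {0, o})]
  · rw [Finset.sum_pair h0]
  · intro b _ hb
    have hb0 : b ≠ 0 := fun h => hb (by simp [h])
    have hbo : b ≠ o := fun h => hb (by simp [h])
    have : o < b := by
      rw [Fin.lt_def, ho]
      have h1 : (b : ℕ) ≠ 0 := fun h => hb0 (Fin.ext h)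
      have h2 : (b : ℕ) ≠ 1 := fun h => hbo (Fin.ext (h.trans ho.symm))
      omega
    rw [hg.1 b o this, mul_zero]

theorem XX_borel {B n : ℕ} {g : Matrix (Fin (n + 1)) (Fin (n + 1)) ℂ} (hg : IsBorel g)
    (p : Fin B → Fin (n + 1) → ℂ) :
    XX B n (fun j => Matrix.vecMul (p j) g) = g 0 0 ^ B * XX B n p := by
  unfold XX
  simp only [vm0 hg]
  rw [Finset.prod_mul_distrib, Finset.prod_const, Finset.card_univ, Fintype.card_fin, mul_comm]

/-- Determinant of the first `i` coordinates. -/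
noncomputable def DT {i n : ℕ} (hi : i ≤ n + 1) (p : Fin i → Fin (n + 1) → ℂ) : ℂ :=
  Matrix.det (Matrix.of fun j k : Fin i => p j (Fin.castLE hi k))

theorem DT_mem {i n : ℕ} (hi : i ≤ n + 1) : DT (n := n) hi ∈ MP i (n + 1) 1 := MP_det _

theorem DT_perm {i n : ℕ} (hi : i ≤ n + 1) (σ : Equiv.Perm (Fin i))
    (p : Fin i → Fin (n + 1) → ℂ) :
    DT hi (fun j => p (σ j)) = (Equiv.Perm.sign σ : ℤ) * DT hi p := by
  unfold DT
  have h := Matrix.det_permute σ (Matrix.of fun j k : Fin i => p j (Fin.castLE hi k))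
  rw [← h]
  rfl

theorem DT_borel {i n : ℕ} (hi : i ≤ n + 1) {g : Matrix (Fin (n + 1)) (Fin (n + 1)) ℂ}
    (hg : IsBorel g) (p : Fin i → Fin (n + 1) → ℂ) :
    DT hi (fun j => Matrix.vecMul (p j) g)
      = (∏ k : Fin i, g (Fin.castLE hi k) (Fin.castLE hi k)) * DT hi p := by
  have e : (Matrix.of fun j k : Fin i => Matrix.vecMul (p j) g (Fin.castLE hi k))
      = (Matrix.of fun j k : Fin i => p j (Fin.castLE hi k))
        * (g.submatrix (Fin.castLE hi) (Fin.castLE hi)) := by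
    ext j k
    rw [Matrix.mul_apply]
    simp only [Matrix.of_apply, Matrix.submatrix_apply]
    rw [Matrix.vecMul, dotProduct]
    have h1 : ∑ l : Fin i, p j (Fin.castLE hi l) * g (Fin.castLE hi l) (Fin.castLE hi k)
        = ∑ l ∈ Finset.univ.map (Fin.castLEEmb hi), p j l * g l (Fin.castLE hi k) := by
      rw [Finset.sum_map]; rfl
    rw [h1]
    symm
    refine Finset.sum_subset (Finset.subset_univ _) fun l _ hl => ?_
    have h2 : Fin.castLE hi k < l := by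
      by_contra h
      rw [not_lt, Fin.le_def, Fin.val_castLE] at h
      apply hl
      rw [Finset.mem_map]
      exact ⟨⟨l, lt_of_le_of_lt h k.2⟩, Finset.mem_univ _, Fin.ext rfl⟩
    rw [hg.1 l _ h2, mul_zero]
  unfold DT
  rw [e, Matrix.det_mul, mul_comm]
  congr 1
  rw [Matrix.det_of_isUpperTriangular]
  · rfl
  · intro a b hab
    exact hg.1 _ _ (by simpa using hab)

theorem prod_om {m i : ℕ} (f : Fin m → ℂ) (hi : i ≤ m) (e : ℕ) :
    ∏ k, f k ^ ((e • om m i) k) = (∏ k : Fin i, f (Fin.castLE hi k)) ^ e := by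
  have h1 : (∏ k : Fin i, f (Fin.castLE hi k))
      = ∏ k ∈ Finset.univ.map (Fin.castLEEmb hi), f k := by
    rw [Finset.prod_map]; rfl
  rw [h1, ← Finset.prod_pow]
  rw [← Finset.prod_subset (Finset.subset_univ (Finset.univ.map (Fin.castLEEmb hi)))]
  · refine Finset.prod_congr rfl fun k hk => ?_
    rw [Finset.mem_map] at hk
    obtain ⟨l, -, rfl⟩ := hk
    have : (om m i) (Fin.castLEEmb hi l) = 1 := by
      unfold om; rw [if_pos]; exact l.2
    rw [Pi.smul_apply, this]; simp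
  · intro k _ hk
    have : (om m i) k = 0 := by
      unfold om
      rw [if_neg]
      intro h
      apply hk
      rw [Finset.mem_map]
      exact ⟨⟨k, h⟩, Finset.mem_univ _, Fin.ext rfl⟩
    rw [Pi.smul_apply, this]; simp

theorem prod_om1 {n : ℕ} (f : Fin (n + 1) → ℂ) (e : ℕ) :
    ∏ k, f k ^ ((e • om (n + 1) 1) k) = f 0 ^ e := by
  rw [prod_om f (by omega : 1 ≤ n + 1) e]
  congr 1
  rw [Fin.prod_univ_one]
  rfl

/-- The points `(1, j, j^2, ...)`. -/
noncomputable def vpt (i n : ℕ) (j : Fin i) (k : Fin (n + 1)) : ℂ := ((j : ℕ) : ℂ) ^ (k : ℕ)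

theorem XX_vpt (i n : ℕ) : XX i n (vpt i n) = 1 := by
  unfold XX vpt
  simp

theorem DT_vpt {i n : ℕ} (hi : i ≤ n + 1) : DT hi (vpt i n) ≠ 0 := by
  have e : (Matrix.of fun j k : Fin i => vpt i n j (Fin.castLE hi k))
      = Matrix.vandermonde (fun j : Fin i => ((j : ℕ) : ℂ)) := by
    ext j k
    rw [Matrix.vandermonde_apply]
    rfl
  unfold DT
  rw [e, Matrix.det_vandermonde_ne_zero_iff]
  intro a b hab
  exact Fin.ext (Nat.cast_injective hab)

/-- The product of the brackets of the coordinates `0` and `o`. -/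
noncomputable def VV (i n : ℕ) (o : Fin (n + 1)) (p : Fin i → Fin (n + 1) → ℂ) : ℂ :=
  ∏ j : Fin i, ∏ k ∈ Finset.Ioi j, (p k 0 * p j o - p j 0 * p k o)

theorem VV_mem (i n : ℕ) (o : Fin (n + 1)) : VV i n o ∈ MP i (n + 1) (i - 1) := MP_proj 0 o

theorem VV_perm {i n : ℕ} (o : Fin (n + 1)) (σ : Equiv.Perm (Fin i))
    (p : Fin i → Fin (n + 1) → ℂ) :
    VV i n o (fun j => p (σ j)) = (Equiv.Perm.sign σ : ℤ) * VV i n o p := by
  unfold VV
  rw [← Matrix.det_projVandermonde (fun j => p j 0) (fun j => p j o),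
    ← Matrix.det_projVandermonde (fun j => p (σ j) 0) (fun j => p (σ j) o)]
  have h := Matrix.det_permute σ (Matrix.projVandermonde (fun j => p j 0) (fun j => p j o))
  rw [← h]
  rfl

theorem VV_borel {i n : ℕ} {g : Matrix (Fin (n + 1)) (Fin (n + 1)) ℂ} (hg : IsBorel g)
    {o : Fin (n + 1)} (ho : (o : ℕ) = 1) (p : Fin i → Fin (n + 1) → ℂ) :
    VV i n o (fun j => Matrix.vecMul (p j) g) = (g 0 0 * g o o) ^ (i.choose 2) * VV i n o p := by
  unfold VV
  have e : ∀ j k : Fin i, Matrix.vecMul (p k) g 0 * Matrix.vecMul (p j) g o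
      - Matrix.vecMul (p j) g 0 * Matrix.vecMul (p k) g o
      = (g 0 0 * g o o) * (p k 0 * p j o - p j 0 * p k o) := by
    intro j k
    rw [vm0 hg, vm0 hg, vm1 hg _ ho, vm1 hg _ ho]
    ring
  generalize g 0 0 * g o o = c at e ⊢
  simp only [e, Finset.prod_mul_distrib, Finset.prod_const]
  congr 1
  rw [Finset.prod_pow_eq_pow_sum]
  congr 1
  simp only [Fin.card_Ioi]
  rw [Fin.sum_univ_eq_sum_range (fun j => i - 1 - j) i, Finset.sum_range_reflect (fun j => j) i,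
    Finset.sum_range_id, Nat.choose_two_right]

theorem VV_vpt {i n : ℕ} {o : Fin (n + 1)} (ho : (o : ℕ) = 1) : VV i n o (vpt i n) ≠ 0 := by
  unfold VV
  rw [Finset.prod_ne_zero_iff]
  intro j _
  rw [Finset.prod_ne_zero_iff]
  intro k hk
  rw [Finset.mem_Ioi] at hk
  unfold vpt
  rw [ho]
  simp only [Fin.val_zero, pow_zero, one_mul, pow_one]
  rw [sub_ne_zero]
  intro h
  exact hk.ne (Fin.ext (Nat.cast_injective h))

/-- `∏_j (coordinate o of p_k, coordinate 0 of the other points)`. -/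
noncomputable def TT (n : ℕ) (o : Fin (n + 1)) (k : Fin 3) (p : Fin 3 → Fin (n + 1) → ℂ) : ℂ :=
  ∏ j, p j (if j = k then o else 0)

theorem TT_mem (n : ℕ) (o : Fin (n + 1)) (k : Fin 3) : TT n o k ∈ MP 3 (n + 1) 1 := MP_coord _

theorem TT_perm {n : ℕ} (o : Fin (n + 1)) (k : Fin 3) (σ : Equiv.Perm (Fin 3))
    (p : Fin 3 → Fin (n + 1) → ℂ) :
    TT n o k (fun j => p (σ j)) = TT n o (σ k) p := by
  unfold TT
  rw [← Equiv.prod_comp σ (fun j => p j (if j = σ k then o else 0))]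
  refine Finset.prod_congr rfl fun j _ => ?_
  simp only [EmbeddingLike.apply_eq_iff_eq]

theorem TT_borel {n : ℕ} {g : Matrix (Fin (n + 1)) (Fin (n + 1)) ℂ} (hg : IsBorel g)
    {o : Fin (n + 1)} (ho : (o : ℕ) = 1) (k : Fin 3) (p : Fin 3 → Fin (n + 1) → ℂ) :
    TT n o k (fun j => Matrix.vecMul (p j) g)
      = g 0 0 ^ 2 * g o o * TT n o k p + g 0 0 ^ 2 * g 0 o * XX 3 n p := by
  unfold TT XX
  fin_cases k <;>
  simp [Fin.prod_univ_three, vm0 hg, vm1 hg _ ho] <;> ring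

/-- The factors of the cubic covariant. -/
noncomputable def LL (n : ℕ) (o : Fin (n + 1)) (k : Fin 3) : (Fin 3 → Fin (n + 1) → ℂ) → ℂ :=
  (3 : ℂ) • TT n o k - ∑ l, TT n o l

theorem LL_mem (n : ℕ) (o : Fin (n + 1)) (k : Fin 3) : LL n o k ∈ MP 3 (n + 1) 1 :=
  Submodule.sub_mem _ (Submodule.smul_mem _ _ (TT_mem n o k))
    (Submodule.sum_mem _ fun l _ => TT_mem n o l)

theorem LL_apply (n : ℕ) (o : Fin (n + 1)) (k : Fin 3) (p : Fin 3 → Fin (n + 1) → ℂ) :
    LL n o k p = 3 * TT n o k p - ∑ l, TT n o l p := by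
  unfold LL
  simp [Finset.sum_apply]

theorem LL_perm {n : ℕ} (o : Fin (n + 1)) (k : Fin 3) (σ : Equiv.Perm (Fin 3))
    (p : Fin 3 → Fin (n + 1) → ℂ) :
    LL n o k (fun j => p (σ j)) = LL n o (σ k) p := by
  rw [LL_apply, LL_apply]
  simp only [TT_perm]
  rw [Equiv.sum_comp σ (fun l => TT n o l p)]

theorem LL_borel {n : ℕ} {g : Matrix (Fin (n + 1)) (Fin (n + 1)) ℂ} (hg : IsBorel g)
    {o : Fin (n + 1)} (ho : (o : ℕ) = 1) (k : Fin 3) (p : Fin 3 → Fin (n + 1) → ℂ) :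
    LL n o k (fun j => Matrix.vecMul (p j) g) = g 0 0 ^ 2 * g o o * LL n o k p := by
  rw [LL_apply, LL_apply]
  simp only [TT_borel hg ho, Fin.sum_univ_three]
  ring

/-- The cubic covariant. -/
noncomputable def CC (n : ℕ) (o : Fin (n + 1)) : (Fin 3 → Fin (n + 1) → ℂ) → ℂ :=
  LL n o 0 * LL n o 1 * LL n o 2

theorem CC_mem (n : ℕ) (o : Fin (n + 1)) : CC n o ∈ MP 3 (n + 1) 3 := by
  have h := MP_mul (MP_mul (LL_mem n o 0) (LL_mem n o 1)) (LL_mem n o 2)
  rw [show 1 + 1 + 1 = 3 from rfl] at h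
  exact h

theorem CC_apply (n : ℕ) (o : Fin (n + 1)) (p : Fin 3 → Fin (n + 1) → ℂ) :
    CC n o p = ∏ k, LL n o k p := by
  rw [Fin.prod_univ_three]; rfl

theorem CC_perm {n : ℕ} (o : Fin (n + 1)) (σ : Equiv.Perm (Fin 3))
    (p : Fin 3 → Fin (n + 1) → ℂ) : CC n o (fun j => p (σ j)) = CC n o p := by
  rw [CC_apply, CC_apply]
  simp only [LL_perm]
  exact Equiv.prod_comp σ (fun k => LL n o k p)

theorem CC_borel {n : ℕ} {g : Matrix (Fin (n + 1)) (Fin (n + 1)) ℂ} (hg : IsBorel g)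
    {o : Fin (n + 1)} (ho : (o : ℕ) = 1) (p : Fin 3 → Fin (n + 1) → ℂ) :
    CC n o (fun j => Matrix.vecMul (p j) g) = (g 0 0 ^ 2 * g o o) ^ 3 * CC n o p := by
  rw [CC_apply, CC_apply]
  simp only [LL_borel hg ho]
  rw [Finset.prod_mul_distrib, Finset.prod_const, Finset.card_univ, Fintype.card_fin]

/-- The points `(1, y_j, 1, ...)` with `y = (0, 1, 3)`. -/
noncomputable def cpt (n : ℕ) (o : Fin (n + 1)) (j : Fin 3) (k : Fin (n + 1)) : ℂ :=
  if k = o then (![0, 1, 3] : Fin 3 → ℂ) j else 1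

theorem XX_cpt {n : ℕ} {o : Fin (n + 1)} (ho : (o : ℕ) = 1) : XX 3 n (cpt n o) = 1 := by
  unfold XX cpt
  have h0 : (0 : Fin (n + 1)) ≠ o := by
    intro h; rw [← h] at ho; simp at ho
  simp [h0]

theorem CC_cpt {n : ℕ} {o : Fin (n + 1)} (ho : (o : ℕ) = 1) : CC n o (cpt n o) ≠ 0 := by
  have h0 : (0 : Fin (n + 1)) ≠ o := by
    intro h; rw [← h] at ho; simp at ho
  have e : ∀ k, TT n o k (cpt n o) = (![0, 1, 3] : Fin 3 → ℂ) k := by
    intro k
    unfold TT cpt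
    fin_cases k <;> simp [Fin.prod_univ_three, h0]
  rw [CC_apply, Fin.prod_univ_three]
  simp only [LL_apply, e, Fin.sum_univ_three]
  have e2 : (![0, 1, 3] : Fin 3 → ℂ) 2 = 3 := rfl
  have e1 : (![0, 1, 3] : Fin 3 → ℂ) 1 = 1 := rfl
  have e0 : (![0, 1, 3] : Fin 3 → ℂ) 0 = 0 := rfl
  rw [e0, e1, e2]
  norm_num

theorem sgn_sq {i : ℕ} (σ : Equiv.Perm (Fin i)) :
    ((Equiv.Perm.sign σ : ℤ) : ℂ) * ((Equiv.Perm.sign σ : ℤ) : ℂ) = 1 := by
  rcases Int.units_eq_one_or (Equiv.Perm.sign σ) with h | h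
  · rw [h]; simp
  · rw [h]; simp

theorem prod_om2 {n : ℕ} (f : Fin (n + 1) → ℂ) {o : Fin (n + 1)} (ho : (o : ℕ) = 1) (e : ℕ) :
    ∏ k, f k ^ ((e • om (n + 1) 2) k) = (f 0 * f o) ^ e := by
  have h2 : 2 ≤ n + 1 := by have := o.2; omega
  rw [prod_om f h2 e]
  congr 1
  rw [Fin.prod_univ_two]
  congr 1
  congr 1
  exact Fin.ext ho.symm

end H277

open H277

theorem gen0 {a n : ℕ} : Pos 1 a (n + 1) (a • om (n + 1) 1) := by
  refine realize (XX 1 n ^ a) ?_ ?_ ?_ ?_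
  · have := MP_pow (XX_mem 1 n) a
    rwa [mul_one] at this
  · intro σ p
    simp only [Pi.pow_apply, XX_perm]
  · intro g hg p
    rw [prod_om1]
    simp only [Pi.pow_apply, XX_borel hg, pow_one]
    rw [mul_pow]
  · intro h
    have := congrFun h (fun _ => 1)
    simp [XX] at this

theorem genD {i p a n : ℕ} (hi : 1 ≤ i) (him : i ≤ n + 1) (hp : Even p) (hpa : p ≤ a) :
    Pos i a (n + 1) (p • om (n + 1) i + (i * (a - p)) • om (n + 1) 1) := by
  refine realize (DT him ^ p * XX i n ^ (a - p)) ?_ ?_ ?_ ?_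
  · have := MP_mul (MP_pow (DT_mem (n := n) him) p) (MP_pow (XX_mem i n) (a - p))
    rw [mul_one, mul_one] at this
    rwa [show p + (a - p) = a by omega] at this
  · intro σ q
    simp only [Pi.mul_apply, Pi.pow_apply, XX_perm, DT_perm]
    rw [mul_pow]
    have : ((Equiv.Perm.sign σ : ℤ) : ℂ) ^ p = 1 := by
      rcases Int.units_eq_one_or (Equiv.Perm.sign σ) with h | h
      · rw [h]; simp
      · rw [h]; simp [hp.neg_one_pow]
    rw [this, one_mul]
  · intro g hg q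
    simp only [Pi.mul_apply, Pi.pow_apply, XX_borel hg, DT_borel him hg]
    simp only [Pi.add_apply, pow_add, Finset.prod_mul_distrib]
    rw [prod_om (fun k => g k k) him p, prod_om1 (fun k => g k k)]
    rw [pow_mul]
    ring
  · intro h
    have h0 := congrFun h (vpt i n)
    rw [Pi.mul_apply, Pi.pow_apply, Pi.pow_apply, XX_vpt, one_pow, mul_one, Pi.zero_apply] at h0
    exact pow_ne_zero p (DT_vpt him) h0

theorem genE {i a n : ℕ} (hi : 3 ≤ i) (him : i ≤ n + 1) (hia : i ≤ a) :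
    Pos i a (n + 1) (om (n + 1) i + (i.choose 2) • om (n + 1) 2 + (i * (a - i)) • om (n + 1) 1) := by
  have ho : (((⟨1, by omega⟩ : Fin (n + 1)) : Fin (n + 1)) : ℕ) = 1 := rfl
  generalize (⟨1, by omega⟩ : Fin (n + 1)) = o at ho
  refine realize (DT him * VV i n o * XX i n ^ (a - i)) ?_ ?_ ?_ ?_
  · have := MP_mul (MP_mul (DT_mem (n := n) him) (VV_mem i n o)) (MP_pow (XX_mem i n) (a - i))
    rw [mul_one] at this
    rwa [show 1 + (i - 1) + (a - i) = a by omega] at this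
  · intro σ q
    simp only [Pi.mul_apply, Pi.pow_apply, XX_perm, DT_perm, VV_perm]
    have h := sgn_sq σ
    linear_combination (DT him q * VV i n o q * XX i n q ^ (a - i)) * h
  · intro g hg q
    simp only [Pi.mul_apply, Pi.pow_apply, XX_borel hg, DT_borel him hg, VV_borel hg ho]
    simp only [Pi.add_apply, pow_add, Finset.prod_mul_distrib]
    have h1 := prod_om (fun k => g k k) him 1
    rw [one_smul, pow_one] at h1
    rw [h1, prod_om2 (fun k => g k k) ho, prod_om1 (fun k => g k k)]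
    rw [pow_mul]
    ring
  · intro h
    have h0 := congrFun h (vpt i n)
    rw [Pi.mul_apply, Pi.mul_apply, Pi.pow_apply, XX_vpt, one_pow, mul_one, Pi.zero_apply] at h0
    exact mul_ne_zero (DT_vpt him) (VV_vpt ho) h0

theorem genE2 {a n : ℕ} (hn : 1 ≤ n) (ha : 3 ≤ a) :
    Pos 3 a (n + 1) (3 • om (n + 1) 2 + (3 * a - 6) • om (n + 1) 1) := by
  have ho : (((⟨1, by omega⟩ : Fin (n + 1)) : Fin (n + 1)) : ℕ) = 1 := rfl
  generalize (⟨1, by omega⟩ : Fin (n + 1)) = o at ho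
  refine realize (CC n o * XX 3 n ^ (a - 3)) ?_ ?_ ?_ ?_
  · have := MP_mul (CC_mem n o) (MP_pow (XX_mem 3 n) (a - 3))
    rw [mul_one] at this
    rwa [show 3 + (a - 3) = a by omega] at this
  · intro σ q
    simp only [Pi.mul_apply, Pi.pow_apply, XX_perm, CC_perm]
  · intro g hg q
    simp only [Pi.mul_apply, Pi.pow_apply, XX_borel hg, CC_borel hg ho]
    simp only [Pi.add_apply, pow_add, Finset.prod_mul_distrib]
    rw [prod_om2 (fun k => g k k) ho, prod_om1 (fun k => g k k)]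
    obtain ⟨c, rfl⟩ := Nat.exists_eq_add_of_le ha
    rw [show 3 * (3 + c) - 6 = 3 + 3 * c by omega, show 3 + c - 3 = c by omega]
    rw [mul_pow (g 0 0 ^ 3), ← pow_mul, pow_add]
    ring
  · intro h
    have h0 := congrFun h (cpt n o)
    rw [Pi.mul_apply, Pi.pow_apply, XX_cpt ho, one_pow, mul_one, Pi.zero_apply] at h0
    exact CC_cpt ho h0

end Vale.Agent.P181.FR
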