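import Vale.Agent.P181.R2.H277.W2a

set_option autoImplicit false
open scoped TensorProduct
namespace Vale.Agent.P181.FR
open Vale.Agent.P181 Vale.Agent.P181.H280 Vale.Agent.P181.H54 MvPolynomial

namespace W2

/-- Indicator of a set of points. -/
def ind {B : ℕ} (T : Finset (Fin B)) (j : Fin B) : ℕ := if j ∈ T then 1 else 0

/-- The bracket of a set of `i` points. -/
noncomputable def br {B i m : ℕ} (him : i ≤ m) (T : Finset (Fin B)) (p : Fin B → Fin m → ℂ) : ℂ :=
  if h : T.card = i then mn him (T.orderEmbOfFin h) p else 1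

theorem br_eq {B i m : ℕ} (him : i ≤ m) {T : Finset (Fin B)} (h : T.card = i) :
    br him T = mn him (T.orderEmbOfFin h) := by
  funext p
  unfold br
  rw [dif_pos h]

theorem br_mem {B i m : ℕ} (him : i ≤ m) {T : Finset (Fin B)} (h : T.card = i) :
    br him T ∈ MPd B m (ind T) := by
  rw [br_eq him h]
  have h1 := mn_mem him (T.orderEmbOfFin h)
  have e : (fun j => ∑ a : Fin i, if T.orderEmbOfFin h a = j then 1 else 0) = ind T := by
    funext j
    unfold ind
    by_cases hj : j ∈ T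
    · rw [if_pos hj]
      have h2 : j ∈ Set.range (T.orderEmbOfFin h) := by
        rw [Finset.range_orderEmbOfFin]; exact hj
      obtain ⟨a, rfl⟩ := h2
      rw [Finset.sum_eq_single a]
      · rw [if_pos rfl]
      · intro b _ hb
        rw [if_neg]
        intro h'
        exact hb ((T.orderEmbOfFin h).injective h')
      · intro h'; exact absurd (Finset.mem_univ _) h'
    · rw [if_neg hj]
      refine Finset.sum_eq_zero fun a _ => if_neg ?_
      rintro rfl
      exact hj (Finset.orderEmbOfFin_mem T h a)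
  rw [e] at h1
  exact h1

theorem br_borel {B i m : ℕ} (him : i ≤ m) {T : Finset (Fin B)} (h : T.card = i)
    {g : Matrix (Fin m) (Fin m) ℂ} (hg : IsBorel g) (p : Fin B → Fin m → ℂ) :
    br him T (fun j => Matrix.vecMul (p j) g)
      = (∏ k : Fin i, g (Fin.castLE him k) (Fin.castLE him k)) * br him T p := by
  rw [br_eq him h]
  exact mn_borel him _ hg p

/-- The function: all brackets, with `T0, T0'` replaced by `U, U'`. -/
noncomputable def AA {B i m : ℕ} (him : i ≤ m) (T0 T0' U U' : Finset (Fin B)) :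
    (Fin B → Fin m → ℂ) → ℂ :=
  (∏ T ∈ (Finset.powersetCard i Finset.univ) \ {T0, T0'}, br him T) * (br him U * br him U')

theorem sum_ind {B i : ℕ} (hi : 1 ≤ i) (j : Fin B) :
    (∑ T ∈ Finset.powersetCard i (Finset.univ : Finset (Fin B)), ind T) j
      = (B - 1).choose (i - 1) := by
  obtain ⟨n, rfl⟩ : ∃ n, i = n + 1 := ⟨i - 1, by omega⟩
  rw [Finset.sum_apply]
  unfold ind
  rw [← Finset.card_filter]
  have e : (Finset.powersetCard (n + 1) (Finset.univ : Finset (Fin B))).filter (fun T => j ∈ T)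
      = (Finset.powersetCard n ((Finset.univ : Finset (Fin B)).erase j)).image (insert j) := by
    ext T
    rw [Finset.mem_filter, Finset.mem_powersetCard, Finset.mem_image]
    constructor
    · rintro ⟨⟨-, hc⟩, hj⟩
      refine ⟨T.erase j, ?_, Finset.insert_erase hj⟩
      rw [Finset.mem_powersetCard]
      refine ⟨fun x hx => ?_, ?_⟩
      · exact Finset.mem_erase.2 ⟨(Finset.mem_erase.1 hx).1, Finset.mem_univ _⟩
      · rw [Finset.card_erase_of_mem hj, hc]; rfl
    · rintro ⟨S, hS, rfl⟩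
      rw [Finset.mem_powersetCard] at hS
      have hj : j ∉ S := fun h => (Finset.mem_erase.1 (hS.1 h)).1 rfl
      refine ⟨⟨Finset.subset_univ _, ?_⟩, Finset.mem_insert_self _ _⟩
      rw [Finset.card_insert_of_notMem hj, hS.2]
  rw [e, Finset.card_image_of_injOn, Finset.card_powersetCard,
    Finset.card_erase_of_mem (Finset.mem_univ _), Finset.card_univ, Fintype.card_fin]
  · rfl
  · intro S hS S' hS' h
    have hS1 := Finset.mem_powersetCard.1 (Finset.mem_coe.1 hS)
    have hS2 := Finset.mem_powersetCard.1 (Finset.mem_coe.1 hS')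
    have hj : j ∉ S := fun h => (Finset.mem_erase.1 (hS1.1 h)).1 rfl
    have hj' : j ∉ S' := fun h => (Finset.mem_erase.1 (hS2.1 h)).1 rfl
    rw [← Finset.erase_insert hj, ← Finset.erase_insert hj']
    exact congrArg (fun R => Finset.erase R j) h

theorem pair_sub {B i : ℕ} {T0 T0' : Finset (Fin B)} (h0 : T0.card = i) (h0' : T0'.card = i) :
    ({T0, T0'} : Finset (Finset (Fin B))) ⊆ Finset.powersetCard i Finset.univ := by
  intro T hT
  rw [Finset.mem_insert, Finset.mem_singleton] at hT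
  rw [Finset.mem_powersetCard]
  refine ⟨Finset.subset_univ _, ?_⟩
  rcases hT with rfl | rfl
  · exact h0
  · exact h0'

theorem AA_mem {B i m : ℕ} (hi : 1 ≤ i) (him : i ≤ m) {T0 T0' U U' : Finset (Fin B)}
    (h0 : T0.card = i) (h0' : T0'.card = i) (hU : U.card = i) (hU' : U'.card = i)
    (hne : T0 ≠ T0') (hs : ind U + ind U' = ind T0 + ind T0') :
    AA him T0 T0' U U' ∈ MP B m ((B - 1).choose (i - 1)) := by
  have h1 : AA him T0 T0' U U' ∈ MPd B m
      (∑ T ∈ (Finset.powersetCard i Finset.univ) \ {T0, T0'}, ind T + (ind U + ind U')) := by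
    refine MPd_mul (MPd_prod _ _ _ fun T hT => br_mem him ?_)
      (MPd_mul (br_mem him hU) (br_mem him hU'))
    exact (Finset.mem_powersetCard.1 (Finset.mem_sdiff.1 hT).1).2
  rw [hs, ← Finset.sum_pair hne, Finset.sum_sdiff (pair_sub h0 h0')] at h1
  rw [← MPd_const (B := B) (m := m) (fun j => sum_ind hi j)]
  exact h1

theorem AA_HWF {B i m : ℕ} (him : i ≤ m) {T0 T0' U U' : Finset (Fin B)}
    (h0 : T0.card = i) (h0' : T0'.card = i) (hU : U.card = i) (hU' : U'.card = i)
    (hne : T0 ≠ T0') : HWF B m (B.choose i • om m i) (AA him T0 T0' U U') := by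
  intro g hg p
  rw [H277.prod_om (fun k => g k k) him]
  have hc : (Finset.powersetCard i (Finset.univ : Finset (Fin B)) \ {T0, T0'}).card + 2
      = B.choose i := by
    have h1 := Finset.card_sdiff_add_card_eq_card (pair_sub h0 h0')
    rw [Finset.card_pair hne, Finset.card_powersetCard, Finset.card_univ, Fintype.card_fin] at h1
    exact h1
  unfold AA
  simp only [Pi.mul_apply, Finset.prod_apply]
  rw [br_borel him hU hg, br_borel him hU' hg]
  have h2 : ∏ T ∈ Finset.powersetCard i (Finset.univ : Finset (Fin B)) \ {T0, T0'},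
        br him T (fun j => Matrix.vecMul (p j) g)
      = (∏ k : Fin i, g (Fin.castLE him k) (Fin.castLE him k))
          ^ (Finset.powersetCard i (Finset.univ : Finset (Fin B)) \ {T0, T0'}).card
        * ∏ T ∈ Finset.powersetCard i (Finset.univ : Finset (Fin B)) \ {T0, T0'},
          br him T p := by
    rw [← Finset.prod_const, ← Finset.prod_mul_distrib]
    refine Finset.prod_congr rfl fun T hT => br_borel him ?_ hg p
    exact (Finset.mem_powersetCard.1 (Finset.mem_sdiff.1 hT).1).2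
  rw [h2, ← hc, pow_add]
  ring

/-- `AA` at a point where exactly the bracket `S` vanishes. -/
theorem AA_zero {B i m : ℕ} (him : i ≤ m) {T0 T0' U U' S : Finset (Fin B)}
    (hS : S.card = i) (h1 : S ≠ T0) (h2 : S ≠ T0') {p : Fin B → Fin m → ℂ}
    (h : br him S p = 0) : AA him T0 T0' U U' p = 0 := by
  unfold AA
  rw [Pi.mul_apply, Finset.prod_apply, Finset.prod_eq_zero (i := S) _ h, zero_mul]
  rw [Finset.mem_sdiff, Finset.mem_insert, Finset.mem_singleton, Finset.mem_powersetCard]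
  exact ⟨⟨Finset.subset_univ _, hS⟩, fun h' => h'.elim h1 h2⟩

theorem AA_ne_zero {B i m : ℕ} (him : i ≤ m) {T0 T0' U U' : Finset (Fin B)}
    (hU : U.card = i) (hU' : U'.card = i) (h1 : U ≠ T0) (h2 : U' ≠ T0) {p : Fin B → Fin m → ℂ}
    (h : ∀ S : Finset (Fin B), S.card = i → S ≠ T0 → br him S p ≠ 0) :
    AA him T0 T0' U U' p ≠ 0 := by
  unfold AA
  rw [Pi.mul_apply, Finset.prod_apply, Pi.mul_apply]
  refine mul_ne_zero (Finset.prod_ne_zero_iff.2 fun S hS => ?_)
    (mul_ne_zero (h U hU h1) (h U' hU' h2))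
  rw [Finset.mem_sdiff, Finset.mem_insert, Finset.mem_singleton, Finset.mem_powersetCard] at hS
  exact h S hS.1.2 fun h' => hS.2 (Or.inl h')

theorem swap {B i : ℕ} (hi : 2 ≤ i) (hB : 2 * i + 1 ≤ B) {T0 Tk : Finset (Fin B)}
    (h0 : T0.card = i) (hk : Tk.card = i) (hne : T0 ≠ Tk) :
    ∃ T0' U U' : Finset (Fin B), T0'.card = i ∧ U.card = i ∧ U'.card = i ∧ T0 ≠ T0' ∧ Tk ≠ T0' ∧
      U ≠ T0 ∧ U' ≠ T0 ∧ ind U + ind U' = ind T0 + ind T0' := by
  obtain ⟨z, hz, hz'⟩ : ∃ z ∈ Tk, z ∉ T0 := by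
    by_contra hcon
    push Not at hcon
    exact hne (Finset.eq_of_subset_of_card_le hcon (by omega)).symm
  obtain ⟨T0', hT, hT0'⟩ := Finset.exists_subset_card_eq (s := (insert z T0)ᶜ) (n := i) (by
    rw [Finset.card_compl, Fintype.card_fin, Finset.card_insert_of_notMem hz']; omega)
  have hd : ∀ a ∈ T0', a ∉ T0 := fun a ha h =>
    (Finset.mem_compl.1 (hT ha)) (Finset.mem_insert_of_mem h)
  have hzn : z ∉ T0' := fun h => (Finset.mem_compl.1 (hT h)) (Finset.mem_insert_self _ _)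
  obtain ⟨x, hx⟩ : T0.Nonempty := by rw [← Finset.card_pos]; omega
  obtain ⟨y, hy⟩ : T0'.Nonempty := by rw [← Finset.card_pos]; omega
  obtain ⟨y', hy'⟩ : (T0'.erase y).Nonempty := by
    rw [← Finset.card_pos, Finset.card_erase_of_mem hy]; omega
  have hyT : y ∉ T0 := hd y hy
  have hxT : x ∉ T0' := fun h => hd x h hx
  have hxy : x ≠ y := fun h => hyT (h ▸ hx)
  refine ⟨T0', insert y (T0.erase x), insert x (T0'.erase y), hT0', ?_, ?_, ?_, ?_, ?_, ?_, ?_⟩
  · rw [Finset.card_insert_of_notMem (fun h => hyT (Finset.mem_of_mem_erase h)),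
      Finset.card_erase_of_mem hx]
    omega
  · rw [Finset.card_insert_of_notMem (fun h => hxT (Finset.mem_of_mem_erase h)),
      Finset.card_erase_of_mem hy]
    omega
  · rintro rfl; exact hyT hy
  · rintro rfl; exact hzn hz
  · intro h; exact hyT (h ▸ Finset.mem_insert_self _ _)
  · intro h
    exact hd y' (Finset.mem_of_mem_erase hy') (h ▸ Finset.mem_insert_of_mem hy')
  · funext j
    simp only [Pi.add_apply, ind, Finset.mem_insert, Finset.mem_erase]
    by_cases hjx : j = x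
    · subst hjx
      simp [hx, hxT, hxy]
    · by_cases hjy : j = y
      · subst hjy
        simp [hy, hyT, hjx]
      · simp [hjx, hjy]

/-- The curve `(1, x, ..., x^(n-1), x^(n+1), x^(n+1), ...)`. -/
noncomputable def crv (m n : ℕ) (x : ℂ) : Fin m → ℂ :=
  fun k => if (k : ℕ) = n then x ^ (n + 1) else x ^ (k : ℕ)

theorem br_crv {B n m : ℕ} (him : n + 1 ≤ m) {T : Finset (Fin B)} (h : T.card = n + 1)
    {y : Fin B → ℂ} (hy : Function.Injective y) :
    br him T (fun j => crv m n (y j)) = 0 ↔ ∑ j ∈ T, y j = 0 := by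
  rw [br_eq him h]
  have e : mn him (T.orderEmbOfFin h) (fun j => crv m n (y j))
      = Matrix.det (Matrix.of fun a k : Fin (n + 1) =>
        if (k : ℕ) = n then (y (T.orderEmbOfFin h a)) ^ (n + 1)
        else (y (T.orderEmbOfFin h a)) ^ (k : ℕ)) := rfl
  have h1 : Matrix.det (Matrix.vandermonde fun a => y (T.orderEmbOfFin h a)) ≠ 0 := by
    rw [Matrix.det_vandermonde_ne_zero_iff]
    exact hy.comp (T.orderEmbOfFin h).injective
  rw [e, gvdm, mul_eq_zero, or_iff_right h1]
  have h2 : ∑ j ∈ T, y j = ∑ a, y (T.orderEmbOfFin h a) := by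
    conv_lhs => rw [← Finset.map_orderEmbOfFin_univ T h]
    rw [Finset.sum_map]
    rfl
  rw [h2]

/-- The parameters: powers of `2` shifted so that `T1` has sum zero. -/
noncomputable def xx {B : ℕ} (i : ℕ) (T1 : Finset (Fin B)) (j : Fin B) : ℂ :=
  (2 : ℂ) ^ (j : ℕ) - (∑ k ∈ T1, (2 : ℂ) ^ (k : ℕ)) / i

theorem pow_sum_inj {B : ℕ} {S T : Finset (Fin B)}
    (h : ∑ k ∈ S, (2 : ℂ) ^ (k : ℕ) = ∑ k ∈ T, (2 : ℂ) ^ (k : ℕ)) : S = T := by
  have h1 : ∑ k ∈ S.map Fin.valEmbedding, 2 ^ k = ∑ k ∈ T.map Fin.valEmbedding, 2 ^ k := by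
    rw [Finset.sum_map, Finset.sum_map]
    have : ((∑ k ∈ S, 2 ^ (k : ℕ) : ℕ) : ℂ) = ((∑ k ∈ T, 2 ^ (k : ℕ) : ℕ) : ℂ) := by
      push_cast; exact h
    exact_mod_cast this
  have h2 := Finset.geomSum_injective (n := 2) le_rfl h1
  exact Finset.map_injective _ h2

theorem xx_inj {B : ℕ} (i : ℕ) (T1 : Finset (Fin B)) : Function.Injective (xx i T1) := by
  intro a b hab
  unfold xx at hab
  have h1 : (2 : ℂ) ^ (a : ℕ) = 2 ^ (b : ℕ) := by linear_combination hab
  have h2 : (2 : ℕ) ^ (a : ℕ) = 2 ^ (b : ℕ) := by exact_mod_cast h1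
  exact Fin.ext (Nat.pow_right_injective le_rfl h2)

theorem xx_sum {B i : ℕ} (hi : 1 ≤ i) (T1 T : Finset (Fin B)) (h : T.card = i) :
    ∑ j ∈ T, xx i T1 j = 0 ↔ T = T1 := by
  unfold xx
  rw [Finset.sum_sub_distrib, Finset.sum_const, h, nsmul_eq_mul, mul_div_cancel₀, sub_eq_zero]
  · exact ⟨pow_sum_inj, fun h => by rw [h]⟩
  · exact Nat.cast_ne_zero.2 (by omega)

theorem br_xx {B n m : ℕ} (him : n + 1 ≤ m) (T1 : Finset (Fin B)) (τ : Equiv.Perm (Fin B))
    {T : Finset (Fin B)} (h : T.card = n + 1) :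
    br him T (fun j => crv m n (xx (n + 1) T1 (τ j))) = 0 ↔ T.map τ.toEmbedding = T1 := by
  rw [br_crv him h (y := fun j => xx (n + 1) T1 (τ j)) ((xx_inj _ _).comp τ.injective),
    ← xx_sum (by omega : 1 ≤ n + 1) T1 (T.map τ.toEmbedding) (by rw [Finset.card_map, h]),
    Finset.sum_map]
  rfl

theorem map_iff {B : ℕ} (σ : Equiv.Perm (Fin B)) (S T : Finset (Fin B)) :
    S.map σ.toEmbedding = T ↔ S = T.map σ.symm.toEmbedding := by
  constructor
  · rintro rfl
    ext x
    simp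
  · rintro rfl
    ext x
    simp

end W2

open W2 in
theorem hyper {B m i : ℕ} (hi : 2 ≤ i) (him : i ≤ m) (hB : 2 * i + 1 ≤ B)
    (σ : Equiv.Perm (Fin B)) (hσ : σ ≠ 1) :
    ∃ A A' : (Fin B → Fin m → ℂ) → ℂ, A ∈ MP B m ((B - 1).choose (i - 1)) ∧
      A' ∈ MP B m ((B - 1).choose (i - 1)) ∧ HWF B m (B.choose i • om m i) A ∧
      HWF B m (B.choose i • om m i) A' ∧
      ∃ P, A P * A' (fun j => P (σ j)) ≠ A (fun j => P (σ j)) * A' P := by
  obtain ⟨n, rfl⟩ : ∃ n, i = n + 1 := ⟨i - 1, by omega⟩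
  obtain ⟨x, hx⟩ : ∃ x, σ x ≠ x := by
    by_contra hcon
    push Not at hcon
    exact hσ (Equiv.ext hcon)
  obtain ⟨T1, hT1, hT1', h1⟩ := Finset.exists_subsuperset_card_eq
    (s := {σ x}) (t := Finset.univ.erase x) (n := n + 1)
    (Finset.singleton_subset_iff.2 (Finset.mem_erase.2 ⟨hx, Finset.mem_univ _⟩))
    (by rw [Finset.card_singleton]; omega)
    (by rw [Finset.card_erase_of_mem (Finset.mem_univ _), Finset.card_univ, Fintype.card_fin]
        omega)
  have hxT : x ∉ T1 := fun h => (Finset.mem_erase.1 (hT1' h)).1 rfl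
  have hsT : σ x ∈ T1 := hT1 (Finset.mem_singleton_self _)
  set T2 := T1.map σ.symm.toEmbedding with hT2
  have h2 : T2.card = n + 1 := by rw [hT2, Finset.card_map, h1]
  have hne : T2 ≠ T1 := by
    intro h
    apply hxT
    rw [← h, hT2, Finset.mem_map]
    exact ⟨σ x, hsT, by simp⟩
  obtain ⟨S, U, U', a1, a2, a3, a4, a5, a6, a7, a8⟩ := swap hi hB h2 h1 hne
  obtain ⟨S', V, V', b1, b2, b3, b4, b5, b6, b7, b8⟩ := swap hi hB h1 h2 hne.symm
  refine ⟨AA him T2 S U U', AA him T1 S' V V', AA_mem (by omega) him h2 a1 a2 a3 a4 a8,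
    AA_mem (by omega) him h1 b1 b2 b3 b4 b8, AA_HWF him h2 a1 a2 a3 a4,
    AA_HWF him h1 b1 b2 b3 b4, fun j => crv m n (xx (n + 1) T1 j), ?_⟩
  have e1 : ∀ T : Finset (Fin B), T.card = n + 1 →
      (br him T (fun j => crv m n (xx (n + 1) T1 j)) = 0 ↔ T = T1) := by
    intro T hT
    have h3 : T.map (Equiv.refl (Fin B)).toEmbedding = T := by ext a; simp
    have h4 := br_xx him T1 (Equiv.refl _) hT
    rw [h3] at h4
    exact h4
  have e2 : ∀ T : Finset (Fin B), T.card = n + 1 →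
      (br him T (fun j => crv m n (xx (n + 1) T1 (σ j))) = 0 ↔ T = T2) := by
    intro T hT
    rw [br_xx him T1 σ hT, map_iff]
  rw [AA_zero him h1 hne.symm a5 ((e1 T1 h1).2 rfl), zero_mul]
  refine (mul_ne_zero ?_ ?_).symm
  · exact AA_ne_zero him a2 a3 a6 a7 fun T hT hT' => by
      rw [Ne, e2 T hT]; exact hT'
  · exact AA_ne_zero him b2 b3 b6 b7 fun T hT hT' => by
      rw [Ne, e1 T hT]; exact hT'

end Vale.Agent.P181.FR
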