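import Vale.Agent.P181.R2.H959.WDefs
import Vale.Agent.P181.R2.H277.FR4
import Mathlib.Combinatorics.Colex

set_option autoImplicit false
open scoped TensorProduct
namespace Vale.Agent.P181.FR
open Vale.Agent.P181 Vale.Agent.P181.H280 Vale.Agent.P181.H54 MvPolynomial

namespace W2

/-- Functions of `B` points, homogeneous of degree `d j` in the point `j`. -/
noncomputable def MPd (B m : ℕ) (d : Fin B → ℕ) : Submodule ℂ ((Fin B → Fin m → ℂ) → ℂ) :=
  Submodule.span ℂ {G | ∃ q : Fin B → MvPolynomial (Fin m) ℂ, (∀ j, (q j).IsHomogeneous (d j)) ∧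
    G = fun p => ∏ j, eval (p j) (q j)}

theorem MPd_mul {B m : ℕ} {d d' : Fin B → ℕ} {G H : (Fin B → Fin m → ℂ) → ℂ}
    (hG : G ∈ MPd B m d) (hH : H ∈ MPd B m d') : G * H ∈ MPd B m (d + d') := by
  have h1 : G * H ∈ MPd B m d * MPd B m d' := Submodule.mul_mem_mul hG hH
  refine (?_ : MPd B m d * MPd B m d' ≤ MPd B m (d + d')) h1
  unfold MPd
  rw [Submodule.span_mul_span]
  apply Submodule.span_mono
  rintro _ ⟨G1, ⟨q, hq, rfl⟩, H1, ⟨q', hq', rfl⟩, rfl⟩
  refine ⟨fun j => q j * q' j, fun j => (hq j).mul (hq' j), ?_⟩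
  funext p
  simp only [Pi.mul_apply, map_mul, Finset.prod_mul_distrib]

theorem MPd_one (B m : ℕ) : (1 : (Fin B → Fin m → ℂ) → ℂ) ∈ MPd B m 0 := by
  refine Submodule.subset_span ⟨fun _ => 1, fun _ => isHomogeneous_one _ _, ?_⟩
  funext p
  simp

theorem MPd_prod {B m : ℕ} {ι : Type} (s : Finset ι) (G : ι → (Fin B → Fin m → ℂ) → ℂ)
    (d : ι → Fin B → ℕ) (h : ∀ T ∈ s, G T ∈ MPd B m (d T)) :
    ∏ T ∈ s, G T ∈ MPd B m (∑ T ∈ s, d T) := by
  classical
  induction s using Finset.induction_on with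
  | empty => rw [Finset.prod_empty, Finset.sum_empty]; exact MPd_one B m
  | insert a s ha ih =>
    rw [Finset.prod_insert ha, Finset.sum_insert ha]
    exact MPd_mul (h a (Finset.mem_insert_self a s))
      (ih fun T hT => h T (Finset.mem_insert_of_mem hT))

theorem MPd_const {B m a : ℕ} {d : Fin B → ℕ} (hd : ∀ j, d j = a) : MPd B m d = MP B m a := by
  have : d = fun _ => a := funext hd
  rw [this]
  rfl

/-- A minor of the first `i` coordinates. -/
noncomputable def mn {B i m : ℕ} (him : i ≤ m) (t : Fin i → Fin B) (p : Fin B → Fin m → ℂ) : ℂ :=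
  Matrix.det (Matrix.of fun a k : Fin i => p (t a) (Fin.castLE him k))

theorem mn_mem {B i m : ℕ} (him : i ≤ m) (t : Fin i → Fin B) :
    mn him t ∈ MPd B m (fun j => ∑ a : Fin i, if t a = j then 1 else 0) := by
  have h : mn (B := B) him t = ∑ σ : Equiv.Perm (Fin i), ((Equiv.Perm.sign σ : ℤ) : ℂ) •
        (fun p : Fin B → Fin m → ℂ => ∏ a, p (t a) (Fin.castLE him (σ a))) := by
    funext p
    unfold mn
    rw [← Matrix.det_transpose, Matrix.det_apply', Finset.sum_apply]
    refine Finset.sum_congr rfl (fun σ _ => ?_)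
    simp only [Matrix.transpose_apply, Matrix.of_apply, Pi.smul_apply, smul_eq_mul]
  rw [h]
  refine Submodule.sum_mem _ (fun σ _ => Submodule.smul_mem _ _ (Submodule.subset_span ?_))
  refine ⟨fun j => ∏ a : Fin i, if t a = j then X (Fin.castLE him (σ a)) else 1, fun j => ?_, ?_⟩
  · refine IsHomogeneous.prod _ _ _ fun a _ => ?_
    by_cases hj : t a = j
    · rw [if_pos hj, if_pos hj]; exact isHomogeneous_X ℂ _
    · rw [if_neg hj, if_neg hj]; exact isHomogeneous_one _ _
  · funext p
    simp only [map_prod]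
    rw [Finset.prod_comm]
    refine Finset.prod_congr rfl fun a _ => ?_
    rw [Finset.prod_eq_single (t a)]
    · rw [if_pos rfl, eval_X]
    · intro j _ hj
      rw [if_neg (Ne.symm hj), map_one]
    · intro h; exact absurd (Finset.mem_univ _) h

theorem mn_borel {B i m : ℕ} (him : i ≤ m) (t : Fin i → Fin B) {g : Matrix (Fin m) (Fin m) ℂ}
    (hg : IsBorel g) (p : Fin B → Fin m → ℂ) :
    mn him t (fun j => Matrix.vecMul (p j) g)
      = (∏ k : Fin i, g (Fin.castLE him k) (Fin.castLE him k)) * mn him t p := by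
  have e : (Matrix.of fun a k : Fin i => Matrix.vecMul (p (t a)) g (Fin.castLE him k))
      = (Matrix.of fun a k : Fin i => p (t a) (Fin.castLE him k))
        * (g.submatrix (Fin.castLE him) (Fin.castLE him)) := by
    ext j k
    rw [Matrix.mul_apply]
    simp only [Matrix.of_apply, Matrix.submatrix_apply]
    rw [Matrix.vecMul, dotProduct]
    have h1 : ∑ l : Fin i, p (t j) (Fin.castLE him l) * g (Fin.castLE him l) (Fin.castLE him k)
        = ∑ l ∈ Finset.univ.map (Fin.castLEEmb him), p (t j) l * g l (Fin.castLE him k) := by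
      rw [Finset.sum_map]; rfl
    rw [h1]
    symm
    refine Finset.sum_subset (Finset.subset_univ _) fun l _ hl => ?_
    have h2 : Fin.castLE him k < l := by
      by_contra h
      rw [not_lt, Fin.le_def, Fin.val_castLE] at h
      apply hl
      rw [Finset.mem_map]
      exact ⟨⟨l, lt_of_le_of_lt h k.2⟩, Finset.mem_univ _, Fin.ext rfl⟩
    rw [hg.1 l _ h2, mul_zero]
  unfold mn
  rw [e, Matrix.det_mul, mul_comm]
  congr 1
  rw [Matrix.det_of_isUpperTriangular]
  · rfl
  · intro a b hab
    exact hg.1 _ _ (by simpa using hab)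

/-- Generalised Vandermonde determinant. -/
theorem gvdm {n : ℕ} (x : Fin (n + 1) → ℂ) :
    Matrix.det (Matrix.of fun a k : Fin (n + 1) =>
      if (k : ℕ) = n then x a ^ (n + 1) else x a ^ (k : ℕ))
      = Matrix.det (Matrix.vandermonde x) * ∑ a, x a := by
  set q : Polynomial ℂ := ∏ a : Fin (n + 1), (Polynomial.X - Polynomial.C (x a)) with hq
  have hmon : q.Monic := Polynomial.monic_prod_of_monic _ _ fun a _ => Polynomial.monic_X_sub_C _
  have hdeg : q.natDegree = n + 1 := by
    rw [hq, Polynomial.natDegree_prod_of_monic _ _ fun a _ => Polynomial.monic_X_sub_C _]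
    simp
  have hroot : ∀ a, q.eval (x a) = 0 := by
    intro a
    rw [hq, Polynomial.eval_prod]
    exact Finset.prod_eq_zero (Finset.mem_univ a) (by simp)
  have hlast : q.coeff n = -∑ a, x a := by
    have := Polynomial.prod_X_sub_C_coeff_card_pred (Finset.univ : Finset (Fin (n + 1))) x
      (by simp)
    simpa using this
  have hpow : ∀ a, x a ^ (n + 1) = ∑ k : Fin (n + 1), x a ^ (k : ℕ) * (-q.coeff k) := by
    intro a
    have h1 := hroot a
    rw [Polynomial.eval_eq_sum_range, hdeg, Finset.sum_range_succ] at h1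
    have h2 : q.coeff (n + 1) = 1 := by rw [← hdeg]; exact hmon
    rw [h2, one_mul, ← Fin.sum_univ_eq_sum_range (fun k => q.coeff k * x a ^ k) (n + 1)] at h1
    have h3 : ∑ k : Fin (n + 1), x a ^ (k : ℕ) * (-q.coeff k)
        = -∑ k : Fin (n + 1), q.coeff k * x a ^ (k : ℕ) := by
      rw [← Finset.sum_neg_distrib]
      exact Finset.sum_congr rfl fun k _ => by ring
    rw [h3]
    linear_combination h1
  have hM : (Matrix.of fun a k : Fin (n + 1) =>
      if (k : ℕ) = n then x a ^ (n + 1) else x a ^ (k : ℕ))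
      = (Matrix.vandermonde x).updateCol (Fin.last n)
        (Matrix.mulVec (Matrix.vandermonde x) fun k => -q.coeff k) := by
    ext a k
    rw [Matrix.of_apply, Matrix.updateCol_apply]
    by_cases hk : k = Fin.last n
    · rw [if_pos hk, if_pos (by rw [hk]; simp), hpow a]
      rfl
    · rw [if_neg hk, if_neg (fun h => hk (Fin.ext (by simpa using h)))]
      rfl
  rw [hM, ← Matrix.cramer_apply, Matrix.cramer_eq_adjugate_mulVec, Matrix.mulVec_mulVec,
    Matrix.adjugate_mul, Matrix.smul_mulVec, Matrix.one_mulVec, Pi.smul_apply, smul_eq_mul]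
  simp only [Fin.val_last, hlast, neg_neg]

end W2

end Vale.Agent.P181.FR
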